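import Mathlib

/-!
# The one-coordinate inequality of the quenched reverse Lipschitz bound, exponents `(2k+2, k)`
-/

set_option autoImplicit false

namespace Vale.Agent.P331.H495

/-- tangent form of the convexity of `x ^ (k+1) / y ^ k` -/
theorem tangent (k : ℕ) {x y s : ℝ} (hx : 0 ≤ x) (hy : 0 < y) (hs : 0 ≤ s) :
    (k + 1) * s ^ k * x - k * s ^ (k + 1) * y ≤ x ^ (k + 1) / y ^ k := by
  rcases hs.eq_or_lt with rfl | hs
  · rcases Nat.eq_zero_or_pos k with rfl | hk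
    · simp
    · rw [zero_pow (by omega), zero_pow (by omega)]
      have : 0 ≤ x ^ (k + 1) / y ^ k := by positivity
      simpa using this
  · have h1 : (-2 : ℝ) ≤ x / (s * y) - 1 := by
      have : 0 ≤ x / (s * y) := by positivity
      linarith
    have h2 := one_add_mul_le_pow h1 (k + 1)
    have h3 : 0 < s ^ (k + 1) * y := by positivity
    have h4 := mul_le_mul_of_nonneg_left h2 h3.le
    have h5 : s ^ (k + 1) * y * (1 + (x / (s * y) - 1)) ^ (k + 1) = x ^ (k + 1) / y ^ k := by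
      rw [show 1 + (x / (s * y) - 1) = x / (s * y) by ring, div_pow, mul_pow, pow_succ y k]
      field_simp
    have h6 : s ^ (k + 1) * y * (1 + ((k + 1 : ℕ) : ℝ) * (x / (s * y) - 1)) =
        (k + 1) * s ^ k * x - k * s ^ (k + 1) * y := by
      push_cast
      field_simp
      ring
    rw [h5, h6] at h4
    exact h4

/-- weighted joint convexity of `x ^ (k+1) / y ^ k` -/
theorem conv (k : ℕ) {w₀ w₁ x₀ x₁ y₀ y₁ : ℝ} (hw₀ : 0 ≤ w₀) (hw₁ : 0 ≤ w₁) (hx₀ : 0 ≤ x₀)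
    (hx₁ : 0 ≤ x₁) (hy₀ : 0 < y₀) (hy₁ : 0 < y₁) (hy : 0 < w₀ * y₀ + w₁ * y₁) :
    (w₀ * x₀ + w₁ * x₁) ^ (k + 1) / (w₀ * y₀ + w₁ * y₁) ^ k ≤
      w₀ * (x₀ ^ (k + 1) / y₀ ^ k) + w₁ * (x₁ ^ (k + 1) / y₁ ^ k) := by
  set X := w₀ * x₀ + w₁ * x₁ with hX
  set Y := w₀ * y₀ + w₁ * y₁ with hY
  have hX0 : 0 ≤ X := by positivity
  set s := X / Y with hs
  have hs0 : 0 ≤ s := by positivity
  have h0 := mul_le_mul_of_nonneg_left (tangent k hx₀ hy₀ hs0) hw₀
  have h1 := mul_le_mul_of_nonneg_left (tangent k hx₁ hy₁ hs0) hw₁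
  have h2 : X ^ (k + 1) / Y ^ k = (k + 1) * s ^ k * X - k * s ^ (k + 1) * Y := by
    have hXs : X = s * Y := by
      rw [hs]
      field_simp
    rw [hXs, mul_pow, pow_succ Y k]
    field_simp
    ring
  rw [h2]
  calc (k + 1) * s ^ k * X - k * s ^ (k + 1) * Y
      = w₀ * ((k + 1) * s ^ k * x₀ - k * s ^ (k + 1) * y₀) +
        w₁ * ((k + 1) * s ^ k * x₁ - k * s ^ (k + 1) * y₁) := by
        rw [hX, hY]
        ring
    _ ≤ _ := add_le_add h0 h1

theorem pow_mul_le (n : ℕ) {x : ℝ} (hx : -1 ≤ x) (hx1 : x ≤ 1) :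
    (1 + x) ^ n * (1 - n * x) ≤ 1 := by
  have h1 : 1 + n * (-x) ≤ (1 + (-x)) ^ n := one_add_mul_le_pow (by linarith) n
  have h2 : 0 ≤ (1 + x) ^ n := pow_nonneg (by linarith) n
  calc (1 + x) ^ n * (1 - n * x) ≤ (1 + x) ^ n * (1 + (-x)) ^ n := by
        refine mul_le_mul_of_nonneg_left ?_ h2
        linarith
    _ = ((1 + x) * (1 + (-x))) ^ n := by rw [mul_pow]
    _ ≤ 1 := by
        refine pow_le_one₀ ?_ ?_
        · nlinarith
        · nlinarith [sq_nonneg x]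

/-- the key estimate of the main case -/
theorem main1 (k : ℕ) {t e b : ℝ} (ht : 0 < t) (ht2 : t ≤ 1 / 2) (he : 0 ≤ e)
    (he2 : 16 * ((k : ℝ) + 1) * e ≤ 1) (hb : 0 ≤ b) (hb1 : b ≤ 1) {c D : ℝ} (hc : t / 2 ≤ c)
    (hD : D = 2 * e * t * (1 - b) - c * (1 - b) ^ 2) (hx0 : 0 ≤ 1 + D / (1 - t)) :
    (1 - t) * (1 + D / (1 - t)) ^ (k + 1) ≤ 1 - t + e * t * (1 - b ^ (2 * k + 2)) := by
  have hA : 0 < 1 - t := by linarith
  have hb3 : b ^ (2 * k + 2) ≤ 1 := pow_le_one₀ hb hb1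
  have het : 0 ≤ e * t := by positivity
  rcases le_total D 0 with hD0 | hD0
  · have h3 : (1 + D / (1 - t)) ^ (k + 1) ≤ 1 := by
      refine pow_le_one₀ hx0 ?_
      have : D / (1 - t) ≤ 0 := div_nonpos_of_nonpos_of_nonneg hD0 hA.le
      linarith
    have h4 : 0 ≤ e * t * (1 - b ^ (2 * k + 2)) := mul_nonneg het (by linarith)
    nlinarith
  obtain ⟨β, hβ⟩ : ∃ β, β = 1 - b := ⟨_, rfl⟩
  have hβ0 : 0 ≤ β := by linarith
  have hβ1 : β ≤ 1 := by linarith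
  rw [← hβ] at hD
  obtain ⟨n, hn⟩ : ∃ n : ℝ, n = (k : ℝ) + 1 := ⟨_, rfl⟩
  have hn0 : 0 ≤ (k : ℝ) := Nat.cast_nonneg k
  have hn1 : 1 ≤ n := by linarith
  have hn2 : n * e ≤ 1 / 16 := by
    rw [hn]
    linarith
  have he16 : e ≤ 1 / 16 := by nlinarith
  have htA : t / (1 - t) ≤ 1 := by
    rw [div_le_one hA]
    linarith
  have htA0 : 0 ≤ t / (1 - t) := by positivity
  obtain ⟨ξ, hξ⟩ : ∃ ξ, ξ = D / (1 - t) := ⟨_, rfl⟩
  rw [← hξ]
  have hξ0 : 0 ≤ ξ := by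
    rw [hξ]
    positivity
  obtain ⟨q, hq⟩ : ∃ q, q = 2 * n * β * (e * t) / (1 - t) := ⟨_, rfl⟩
  have hq0 : 0 ≤ q := by
    rw [hq]
    positivity
  obtain ⟨P, hP⟩ : ∃ P, P = n * c * β ^ 2 / (1 - t) := ⟨_, rfl⟩
  have hP0 : 0 ≤ P := by
    have : 0 ≤ c := by linarith
    rw [hP]
    positivity
  have hnξ : n * ξ = q - P := by
    rw [hξ, hq, hD, hP]
    field_simp
  have hq8 : q ≤ 1 / 8 := by
    have h : q = 2 * (n * e) * β * (t / (1 - t)) := by
      rw [hq]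
      ring
    rw [h]
    have h3 : n * e * β ≤ 1 / 16 * 1 := mul_le_mul hn2 hβ1 hβ0 (by norm_num)
    have h4 : 0 ≤ n * e * β := by positivity
    calc 2 * (n * e) * β * (t / (1 - t)) ≤ 2 * (n * e) * β * 1 :=
          mul_le_mul_of_nonneg_left htA (by positivity)
      _ ≤ 1 / 8 := by linarith
  have hnξ8 : n * ξ ≤ 1 / 8 := by linarith
  have hξ1 : ξ ≤ 1 := by nlinarith
  have h3 : (1 + ξ) ^ (k + 1) * (1 - n * ξ) ≤ 1 := by
    have := pow_mul_le (k + 1) (x := ξ) (by linarith) hξ1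
    push_cast at this
    rwa [← hn] at this
  have h4 : b ^ (2 * k + 2) * (1 + 2 * n * β) ≤ 1 := by
    have := pow_mul_le (2 * k + 2) (x := -β) (by linarith) (by linarith)
    push_cast at this
    rw [show 1 + -β = b by rw [hβ]; ring] at this
    have h5 : (1 : ℝ) - (2 * k + 2) * -β = 1 + 2 * n * β := by
      rw [hn]
      ring
    rwa [h5] at this
  have hden : 0 < 1 + 2 * n * β := by positivity
  obtain ⟨r, hr⟩ : ∃ r, r = 2 * n * β / (1 + 2 * n * β) := ⟨_, rfl⟩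
  have hnβ : 0 ≤ 2 * n * β := by positivity
  have hr0 : 0 ≤ r := by
    rw [hr]
    positivity
  have hr1 : r ≤ 2 * n * β := by
    rw [hr]
    exact div_le_self hnβ (by linarith)
  have hr1' : r ≤ 1 := by
    rw [hr, div_le_one hden]
    linarith
  have h5 : r ≤ 1 - b ^ (2 * k + 2) := by
    rw [hr, div_le_iff₀ hden]
    linarith
  have hP1 : 2 * n * β * q + q ^ 2 ≤ P := by
    have h8 : 2 * n * β * q + q ^ 2 =
        n * β ^ 2 / (1 - t) * (4 * (n * e) * t + 4 * (n * e) * e * t * (t / (1 - t))) := by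
      rw [hq]
      field_simp
      ring
    have h9 : P = n * β ^ 2 / (1 - t) * c := by
      rw [hP]
      ring
    rw [h8, h9]
    refine mul_le_mul_of_nonneg_left ?_ (by positivity)
    have h10 : 4 * (n * e) * t ≤ t / 4 := by nlinarith
    have h12 : 4 * (n * e) * e * t ≤ t / 16 := by
      have h : (n * e) * e ≤ 1 / 16 * (1 / 16) := mul_le_mul hn2 he16 he (by norm_num)
      nlinarith
    have h13 : 0 ≤ 4 * (n * e) * e * t := by positivity
    have h11 : 4 * (n * e) * e * t * (t / (1 - t)) ≤ t / 16 := by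
      calc 4 * (n * e) * e * t * (t / (1 - t)) ≤ 4 * (n * e) * e * t * 1 :=
            mul_le_mul_of_nonneg_left htA h13
        _ ≤ t / 16 := by linarith
    linarith
  have h6 : 1 ≤ (1 - n * ξ) * (1 + q * (1 - r)) := by
    rw [hnξ]
    have h14 : q * r ≤ 2 * n * β * q := by
      calc q * r ≤ q * (2 * n * β) := mul_le_mul_of_nonneg_left hr1 hq0
        _ = _ := by ring
    have h15 : 0 ≤ q * (1 - r) := mul_nonneg hq0 (by linarith)
    have h16 : 0 ≤ P * (q * (1 - r)) := mul_nonneg hP0 h15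
    have h17 : 0 ≤ q * (q * r) := mul_nonneg hq0 (mul_nonneg hq0 hr0)
    have h18 : (1 - (q - P)) * (1 + q * (1 - r)) =
        1 - q * r + P + P * (q * (1 - r)) - q ^ 2 + q * (q * r) := by ring
    rw [h18]
    linarith
  have h7 : 0 < 1 - n * ξ := by linarith
  have h8 : (1 + ξ) ^ (k + 1) ≤ 1 + q * (1 - r) := by
    by_contra h
    push Not at h
    have := mul_lt_mul_of_pos_right h h7
    linarith [mul_comm (1 + q * (1 - r)) (1 - n * ξ)]
  have h9 : (1 - t) * (q * (1 - r)) = e * t * r := by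
    have h10 : 1 - r = 1 / (1 + 2 * n * β) := by
      rw [hr]
      field_simp
      ring
    rw [h10, hq, hr]
    field_simp
  calc (1 - t) * (1 + ξ) ^ (k + 1) ≤ (1 - t) * (1 + q * (1 - r)) :=
        mul_le_mul_of_nonneg_left h8 hA.le
    _ = 1 - t + e * t * r := by
        rw [mul_add, h9, mul_one]
    _ ≤ _ := by
        have := mul_le_mul_of_nonneg_left h5 het
        linarith

/-- the key estimate of the second case -/
theorem main2 (k : ℕ) {t e b d : ℝ} (ht : 0 < t) (ht2 : t ≤ 1 / 2) (he : 0 ≤ e)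
    (he2 : 16 * ((k : ℝ) + 1) * e ≤ 1) (hb : 0 ≤ b) (hb1 : b ≤ 1) {c D : ℝ} (hc : t / 2 ≤ c)
    (hD : D = 2 * e * t * (1 - b) - c * (1 - b) ^ 2) (hd : 0 ≤ d)
    (hnd : ((k : ℝ) + 1) * d ≤ e * t / 8)
    (hx0 : 0 ≤ 1 + (D + d * b ^ 2) / (1 - t)) :
    (1 - t) * (1 + (D + d * b ^ 2) / (1 - t)) ^ (k + 1) ≤ 1 - t + e * t := by
  have hA : 0 < 1 - t := by linarith
  have het : 0 ≤ e * t := by positivity
  obtain ⟨ξ, hξ⟩ : ∃ ξ, ξ = (D + d * b ^ 2) / (1 - t) := ⟨_, rfl⟩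
  rw [← hξ] at hx0 ⊢
  rcases le_total ξ 0 with hξ0 | hξ0
  · have h5 : (1 + ξ) ^ (k + 1) ≤ 1 := pow_le_one₀ hx0 (by linarith)
    nlinarith
  obtain ⟨n, hn⟩ : ∃ n : ℝ, n = (k : ℝ) + 1 := ⟨_, rfl⟩
  have hn0 : 0 ≤ (k : ℝ) := Nat.cast_nonneg k
  have hn1 : 1 ≤ n := by linarith
  have hn2 : n * e ≤ 1 / 16 := by
    rw [hn]
    linarith
  rw [← hn] at hnd
  have h5 : D ≤ 2 * e ^ 2 * t := by
    rw [hD]
    have h : 0 ≤ (t / 2) * ((1 - b) - 2 * e) ^ 2 := by positivity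
    nlinarith [mul_nonneg (sub_nonneg.2 hc) (sq_nonneg (1 - b))]
  have hb2 : b ^ 2 ≤ 1 := pow_le_one₀ hb hb1
  have h7 : d * b ^ 2 ≤ d := by nlinarith
  have h8 : n * (2 * e ^ 2 * t) ≤ e * t / 8 := by
    have h : n * (2 * e ^ 2 * t) = 2 * (n * e) * (e * t) := by ring
    rw [h]
    nlinarith
  have h6 : n * (D + d * b ^ 2) ≤ e * t / 4 := by
    have h : n * (D + d * b ^ 2) ≤ n * (2 * e ^ 2 * t + d) :=
      mul_le_mul_of_nonneg_left (by linarith) (by linarith)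
    linarith
  have h7 : (1 - t) * (n * ξ) ≤ e * t / 4 := by
    have h : (1 - t) * (n * ξ) = n * (D + d * b ^ 2) := by
      rw [hξ]
      field_simp
    rw [h]
    exact h6
  have hnξ : 0 ≤ n * ξ := mul_nonneg (by linarith) hξ0
  have he16 : e ≤ 1 / 16 := by nlinarith
  have h8 : n * ξ ≤ 1 / 2 := by nlinarith
  have hξ1 : ξ ≤ 1 := by nlinarith
  have h9 : (1 + ξ) ^ (k + 1) * (1 - n * ξ) ≤ 1 := by
    have := pow_mul_le (k + 1) (x := ξ) (by linarith) hξ1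
    push_cast at this
    rwa [← hn] at this
  have h11 : 0 < 1 - n * ξ := by linarith
  have h10 : (1 + ξ) ^ (k + 1) ≤ 1 + 2 * (n * ξ) := by
    by_contra h
    push Not at h
    have h12 := mul_lt_mul_of_pos_right h h11
    have h13 : (1 + 2 * (n * ξ)) * (1 - n * ξ) = 1 + n * ξ - 2 * (n * ξ) * (n * ξ) := by ring
    have h14 : (n * ξ) * (n * ξ) ≤ 1 / 2 * (n * ξ) := mul_le_mul_of_nonneg_right h8 hnξ
    linarith
  have h15 := mul_le_mul_of_nonneg_left h10 hA.le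
  linarith

/-- The one-coordinate inequality, exponents `(2k+2, k)`. -/
theorem qjrl_scalar (k : ℕ) {t e l a b : ℝ} (ht : 0 < t) (ht2 : t ≤ 1 / 2) (he : 0 ≤ e)
    (he2 : 16 * ((k : ℝ) + 1) * e ≤ 1) (hl : 0 < l) (hlk : 8 * ((k : ℝ) + 1) ≤ l ^ k)
    (ha : 0 < a) (_ha1 : a ≤ 1) (hb : 0 ≤ b) (hb1 : b ≤ 1) :
    (1 - t * (1 - e) * (1 - b)) ^ (2 * k + 2) / (1 - t * (1 - a)) ^ k +
        e * t * b ^ (2 * k + 2) * max 1 (1 / (l * a) ^ k) ≤
      1 - t + e * t + t * (b ^ (2 * k + 2) / a ^ k) := by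
  have hk0 : (0 : ℝ) ≤ k := Nat.cast_nonneg k
  have he16 : e ≤ 1 / 16 := by nlinarith
  have hA : 0 < 1 - t := by linarith
  have het : 0 ≤ e * t := by positivity
  obtain ⟨u, hu⟩ : ∃ u, u = 1 - t * (1 - e) * (1 - b) := ⟨_, rfl⟩
  rw [← hu]
  have hub : b ≤ u := by
    have h1 : t * (1 - e) * (1 - b) ≤ 1 * (1 - b) := by
      refine mul_le_mul_of_nonneg_right ?_ (by linarith)
      nlinarith
    rw [hu]
    linarith
  obtain ⟨c, hc⟩ : ∃ c, c = t - (t * (1 - e)) ^ 2 := ⟨_, rfl⟩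
  have hc2 : t / 2 ≤ c := by
    rw [hc]
    have h1 : (t * (1 - e)) ^ 2 ≤ t ^ 2 := by
      refine pow_le_pow_left₀ (mul_nonneg ht.le (by linarith)) ?_ 2
      nlinarith
    nlinarith
  obtain ⟨D, hD⟩ : ∃ D, D = 2 * e * t * (1 - b) - c * (1 - b) ^ 2 := ⟨_, rfl⟩
  have hU : u ^ 2 = (1 - t) * (1 + D / (1 - t)) + t * b ^ 2 := by
    have h1 : (1 - t) * (1 + D / (1 - t)) = 1 - t + D := by field_simp
    rw [h1, hD, hc, hu]
    ring
  have hx0 : 0 ≤ 1 + D / (1 - t) := by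
    have h1 : 0 ≤ (1 - t) * (1 + D / (1 - t)) := by
      have h2 : (1 - t) * (1 + D / (1 - t)) = u ^ 2 - t * b ^ 2 := by linarith
      rw [h2]
      have h3 : b ^ 2 ≤ u ^ 2 := pow_le_pow_left₀ hb hub 2
      nlinarith [sq_nonneg b]
    exact nonneg_of_mul_nonneg_right h1 hA
  have hpow : ∀ x : ℝ, (x ^ 2) ^ (k + 1) = x ^ (2 * k + 2) := fun x => by
    rw [← pow_mul]
    congr 1
  rcases le_total (1 / (l * a) ^ k) 1 with hmax | hmax
  · rw [max_eq_left hmax, mul_one]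
    have h1 := conv k hA.le ht.le hx0 (sq_nonneg b) one_pos ha
      (show 0 < (1 - t) * 1 + t * a by nlinarith)
    rw [← hU, hpow b, one_pow, div_one, show (1 - t) * 1 + t * a = 1 - t * (1 - a) by ring,
      hpow u] at h1
    have h2 := main1 k ht ht2 he he2 hb hb1 hc2 hD hx0
    linarith
  · rw [max_eq_right hmax]
    obtain ⟨d, hd⟩ : ∃ d, d = e * t / l ^ k := ⟨_, rfl⟩
    have hlk0 : 0 < l ^ k := by positivity
    have hd0 : 0 ≤ d := by
      rw [hd]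
      positivity
    have hnd : ((k : ℝ) + 1) * d ≤ e * t / 8 := by
      rw [hd, mul_div_assoc', div_le_iff₀ hlk0]
      nlinarith
    have hdt : d ≤ t := by nlinarith
    have hda : 0 ≤ (t - d) * a := mul_nonneg (by linarith) ha.le
    have hm1 : 0 < (1 - t) * 1 + (t - d) * a := by linarith
    have hx1 : 0 ≤ 1 + (D + d * b ^ 2) / (1 - t) := by
      have h1 : 0 ≤ d * b ^ 2 / (1 - t) := by positivity
      have h2 : 1 + (D + d * b ^ 2) / (1 - t) = 1 + D / (1 - t) + d * b ^ 2 / (1 - t) := by ring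
      rw [h2]
      linarith
    have hU1 : u ^ 2 = (1 - t) * (1 + (D + d * b ^ 2) / (1 - t)) + (t - d) * b ^ 2 := by
      rw [hU]
      field_simp
      ring
    have h1 := conv k hA.le (sub_nonneg.2 hdt) hx1 (sq_nonneg b) one_pos ha hm1
    rw [← hU1, hpow b, one_pow, div_one, hpow u] at h1
    have h2 : u ^ (2 * k + 2) / (1 - t * (1 - a)) ^ k ≤
        u ^ (2 * k + 2) / ((1 - t) * 1 + (t - d) * a) ^ k := by
      have hu0 : 0 ≤ u := by linarith
      refine div_le_div_of_nonneg_left (by positivity) (by positivity) ?_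
      refine pow_le_pow_left₀ hm1.le ?_ k
      nlinarith [mul_nonneg hd0 ha.le]
    have h3 : e * t * b ^ (2 * k + 2) * (1 / (l * a) ^ k) = d * (b ^ (2 * k + 2) / a ^ k) := by
      rw [hd, mul_pow]
      field_simp
    have h4 := main2 k ht ht2 he he2 hb hb1 hc2 hD hd0 hnd hx1
    rw [h3]
    linarith

end Vale.Agent.P331.H495
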